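import Vale.Agent.Lib.P329.ClassThree
import Vale.Agent.Lib.P329.Sub3
import Vale.Agent.Lib.P329.Elem
import Vale.Agent.Lib.P329.Group

namespace Vale.Agent.Results.P329.AllClasses

open Vale.Agent.Lib.P329

/-- (1) Let the finite group `G` embed into a finite direct product of finite groups `H i`
(the morphisms `π i` are jointly injective), each of which is either nilpotent of class at most
three or an extension of an abelian normal subgroup by an elementary abelian `p`-group (the prime
`p` may depend on `i`).  Then every language recognised by `G` has generalized star height at most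
one.  (2) The same holds for an arbitrary finite group with an abelian normal subgroup `A` and the
morphisms sending every letter into `A` or to one fixed element `g`.  (3) Counting the occurrences
of a scattered subword of length at most three modulo `n` has generalized star height at most
one. -/
theorem result :
    (∀ (α : Type) [Finite α] (G : Type) [Group G] [Finite G] (ι : Type) [Finite ι]
      (H : ι → Type) [∀ i, Group (H i)] [∀ i, Finite (H i)] (π : ∀ i, G →* H i),
      (∀ g : G, (∀ i, π i g = 1) → g = 1) →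
      (∀ i, (∃ _ : Group.IsNilpotent (H i), Group.nilpotencyClass (H i) ≤ 3) ∨
        (∃ (A : Subgroup (H i)) (p : ℕ), A.Normal ∧ (∀ x ∈ A, ∀ y ∈ A, x * y = y * x) ∧ p.Prime ∧
          (∀ g : H i, g ^ p ∈ A) ∧ (∀ g h : H i, g * h * g⁻¹ * h⁻¹ ∈ A))) →
      ∀ (φ : α → G) (S : Set G),
        ∃ P : GRE α, P.sh ≤ 1 ∧ ∀ w : List α, w ∈ P.lang ↔ (w.map φ).prod ∈ S) ∧
    (∀ (α : Type) [Finite α] (G : Type) [Group G] [Finite G] (A : Subgroup G), A.Normal →
      (∀ x ∈ A, ∀ y ∈ A, x * y = y * x) → ∀ (g : G) (φ : α → G), (∀ a, φ a ∈ A ∨ φ a = g) →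
      ∀ S : Set G, ∃ P : GRE α, P.sh ≤ 1 ∧ ∀ w : List α, w ∈ P.lang ↔ (w.map φ).prod ∈ S) ∧
    (∀ (α : Type) [Finite α] [DecidableEq α] (u : List α), u.length ≤ 3 → ∀ n r : ℕ, 0 < n →
        ∃ P : GRE α, P.sh ≤ 1 ∧ ∀ w : List α, w ∈ P.lang ↔ w.sublists.count u % n = r) := by
  refine ⟨?_, ?_, ?_⟩
  · intro α _ G _ _ ι _ H _ _ π hinj hH φ S
    have hm : ∀ i, Meas 1 (fun w : List α => (w.map (fun a => π i (φ a))).prod) := by
      intro i b
      rcases hH i with ⟨hn, hc⟩ | ⟨A, p, hA, hab, hp, hpow, hcomm⟩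
      · exact main_nilpotent3 hc (fun a => π i (φ a)) {b}
      · exact main_elementary A hab p hp hpow hcomm (fun a => π i (φ a)) {b}
    obtain ⟨P, hP, hL⟩ := (Meas.pi hm).pred (fun x : ∀ i, H i => ∃ g ∈ S, ∀ i, π i g = x i)
    refine ⟨P, hP, fun w => ?_⟩
    rw [hL]
    have hprod : ∀ i, π i (w.map φ).prod = (w.map (fun a => π i (φ a))).prod := by
      intro i
      rw [map_list_prod, List.map_map]
      rfl
    constructor
    · rintro ⟨g, hg, hgi⟩
      have : g = (w.map φ).prod := by
        have h1 : g * ((w.map φ).prod)⁻¹ = 1 := by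
          apply hinj
          intro i
          rw [map_mul, map_inv, hprod, hgi i, mul_inv_cancel]
        exact mul_inv_eq_one.mp h1
      rw [← this]
      exact hg
    · intro hw
      exact ⟨_, hw, hprod⟩
  · intro α _ G _ _ A hAn hA g φ hφ S
    obtain ⟨P, hP, hL⟩ := main_group A hA g φ hφ S
    refine ⟨P, hP, fun w => ?_⟩
    rw [hL]
    exact Iff.rfl
  · intro α _ _ u hu n r hn
    have : NeZero n := ⟨by omega⟩
    obtain ⟨P, hP, hL⟩ := (meas_sc u hu n).pred (fun x : ZMod n => x.val = r)
    refine ⟨P, hP, fun w => ?_⟩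
    rw [hL]
    show ((sc u w : ℕ) : ZMod n).val = r ↔ _
    rw [ZMod.val_natCast]
    exact Iff.rfl

end Vale.Agent.Results.P329.AllClasses
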