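import Vale.Agent.Results.P329.AllClasses
import Vale.Agent.Lib.P329.Sym

namespace Vale.Agent.Results.P329.AllClassesSym

open Vale.Agent.Lib.P329

/-- (1), (2), (3): the three statements of `AllClasses` (subdirect products of groups that are
nilpotent of class at most three or abelian by elementary abelian; one outer letter; scattered
subwords of length at most three).
(4) Hub theorem.  Let `δ` be a finite deterministic automaton with a state `h` such that no word
permutes states non-trivially off `h`: whenever reading `u` repeated `k ≥ 1` times from `q` leads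
back to `q` and no prefix (the empty one included) leads to `h`, already `u` fixes `q`.  Then every
language accepted by the automaton (any initial state, any set of final states) has generalized
star height at most one, and so has the language of the words for which the number of nonempty
prefixes leading to `h` is `r` modulo `n`.
(5) Let every letter act on `Fin (n + 1)` as a permutation that sends every `i ≠ 0` to `0` or
weakly upwards (the full cycle, the transposition `(0 1)`, every increasing cycle through `0`).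
Then every language recognised by the induced morphism into the symmetric group has generalized
star height at most one.
(6) In particular this holds for the standard generators of the symmetric group of `Fin (m + 2)`:
the full cycle `finRotate` and the transposition `(0 1)` (and neutral letters). -/
theorem result :
    (∀ (α : Type) [Finite α] (G : Type) [Group G] [Finite G] (ι : Type) [Finite ι]
      (H : ι → Type) [∀ i, Group (H i)] [∀ i, Finite (H i)] (π : ∀ i, G →* H i),
      (∀ g : G, (∀ i, π i g = 1) → g = 1) →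
      (∀ i, (∃ _ : Group.IsNilpotent (H i), Group.nilpotencyClass (H i) ≤ 3) ∨
        (∃ (A : Subgroup (H i)) (p : ℕ), A.Normal ∧ (∀ x ∈ A, ∀ y ∈ A, x * y = y * x) ∧ p.Prime ∧
          (∀ g : H i, g ^ p ∈ A) ∧ (∀ g h : H i, g * h * g⁻¹ * h⁻¹ ∈ A))) →
      ∀ (φ : α → G) (S : Set G),
        ∃ P : GRE α, P.sh ≤ 1 ∧ ∀ w : List α, w ∈ P.lang ↔ (w.map φ).prod ∈ S) ∧
    (∀ (α : Type) [Finite α] (G : Type) [Group G] [Finite G] (A : Subgroup G), A.Normal →
      (∀ x ∈ A, ∀ y ∈ A, x * y = y * x) → ∀ (g : G) (φ : α → G), (∀ a, φ a ∈ A ∨ φ a = g) →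
      ∀ S : Set G, ∃ P : GRE α, P.sh ≤ 1 ∧ ∀ w : List α, w ∈ P.lang ↔ (w.map φ).prod ∈ S) ∧
    (∀ (α : Type) [Finite α] [DecidableEq α] (u : List α), u.length ≤ 3 → ∀ n r : ℕ, 0 < n →
        ∃ P : GRE α, P.sh ≤ 1 ∧ ∀ w : List α, w ∈ P.lang ↔ w.sublists.count u % n = r) ∧
    (∀ (α : Type) [Finite α] (Q : Type) [Finite Q] [DecidableEq Q] (δ : Q → α → Q) (h : Q),
      (∀ (u : List α) (q : Q) (k : ℕ), 0 < k →
        (List.replicate k u).flatten.foldl δ q = q →
        (∀ v, v <+: (List.replicate k u).flatten → v.foldl δ q ≠ h) → u.foldl δ q = q) →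
      (∀ (q : Q) (F : Set Q),
        ∃ P : GRE α, P.sh ≤ 1 ∧ ∀ w : List α, w ∈ P.lang ↔ w.foldl δ q ∈ F) ∧
      (∀ (q : Q) (n r : ℕ), 0 < n →
        ∃ P : GRE α, P.sh ≤ 1 ∧ ∀ w : List α, w ∈ P.lang ↔
          w.inits.tail.countP (fun v => decide (v.foldl δ q = h)) % n = r)) ∧
    (∀ (α : Type) [Finite α] (n : ℕ) (φ : α → Equiv.Perm (Fin (n + 1))),
      (∀ (a : α) (i : Fin (n + 1)), i ≠ 0 → φ a i = 0 ∨ i ≤ φ a i) →
      ∀ S : Set (Equiv.Perm (Fin (n + 1))),
        ∃ P : GRE α, P.sh ≤ 1 ∧ ∀ w : List α, w ∈ P.lang ↔ (w.map φ).prod ∈ S) ∧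
    (∀ (α : Type) [Finite α] (m : ℕ) (φ : α → Equiv.Perm (Fin (m + 2))),
      (∀ a : α, φ a = finRotate (m + 2) ∨ φ a = Equiv.swap 0 1 ∨ φ a = 1) →
      ∀ S : Set (Equiv.Perm (Fin (m + 2))),
        ∃ P : GRE α, P.sh ≤ 1 ∧ ∀ w : List α, w ∈ P.lang ↔ (w.map φ).prod ∈ S) := by
  refine ⟨Vale.Agent.Results.P329.AllClasses.result.1,
    Vale.Agent.Results.P329.AllClasses.result.2.1,
    Vale.Agent.Results.P329.AllClasses.result.2.2, ?_, ?_, ?_⟩
  · intro α _ Q _ _ δ h hnc
    have hcf : CF (absorb δ h) := CF_of_plain δ h hnc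
    refine ⟨?_, ?_⟩
    · intro q F
      have hm : Meas 1 (fun w : List α => run δ q w) := fun q' => run_H1 δ h hcf q q'
      obtain ⟨P, hP, hL⟩ := hm.pred (fun x => x ∈ F)
      refine ⟨P, hP, fun w => ?_⟩
      rw [hL]
      exact Iff.rfl
    · intro q n r hn
      obtain ⟨P, hP, hL⟩ := visits_any_H1 δ h hcf q n r hn
      refine ⟨P, hP, fun w => ?_⟩
      rw [hL, ← visits_eq_countP δ h w q]
      exact Iff.rfl
  · intro α _ n φ hφ S
    obtain ⟨P, hP, hL⟩ := main_forward n φ hφ S
    refine ⟨P, hP, fun w => ?_⟩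
    rw [hL]
    exact Iff.rfl
  · intro α _ m φ hφ S
    obtain ⟨P, hP, hL⟩ := main_standard m φ hφ S
    refine ⟨P, hP, fun w => ?_⟩
    rw [hL]
    exact Iff.rfl

end Vale.Agent.Results.P329.AllClassesSym
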