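import Vale.Agent.Results.P329.AllClassesSym
import Vale.Agent.Lib.P329.Affine5Perm

namespace Vale.Agent.Results.P329.AllClassesSymAff

open Vale.Agent.Lib.P329

/-- (1)-(6): the six statements of `AllClassesSym` (subdirect products of groups that are nilpotent
of class at most three or abelian by elementary abelian; one outer letter; scattered subwords of
length at most three; the hub theorem; forward permutations; standard generators of the symmetric
groups).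
(7), (8) concern the affine group `AGL(1,5)` of the permutations `x ↦ m * x + c` (`m ≠ 0`) of
`ZMod 5`, the Frobenius group of order 20; it has no abelian normal subgroup with elementary
abelian quotient and is not nilpotent.
(7) If no letter is sent to one of the five involutions (multiplier `4 = -1`), every language
recognised by the morphism has generalized star height at most one.
(8) The same holds if the letters have at most two images different from the identity, one of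
them of order four (multiplier `2` or `3`), the other one arbitrary in `AGL(1,5)`. -/
theorem result :
    (∀ (α : Type) [Finite α] (G : Type) [Group G] [Finite G] (ι : Type) [Finite ι]
      (H : ι → Type) [∀ i, Group (H i)] [∀ i, Finite (H i)] (π : ∀ i, G →* H i),
      (∀ g : G, (∀ i, π i g = 1) → g = 1) →
      (∀ i, (∃ _ : Group.IsNilpotent (H i), Group.nilpotencyClass (H i) ≤ 3) ∨
        (∃ (A : Subgroup (H i)) (p : ℕ), A.Normal ∧ (∀ x ∈ A, ∀ y ∈ A, x * y = y * x) ∧ p.Prime ∧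
          (∀ g : H i, g ^ p ∈ A) ∧ (∀ g h : H i, g * h * g⁻¹ * h⁻¹ ∈ A))) →
      ∀ (φ : α → G) (S : Set G),
        ∃ P : GRE α, P.sh ≤ 1 ∧ ∀ w : List α, w ∈ P.lang ↔ (w.map φ).prod ∈ S) ∧
    (∀ (α : Type) [Finite α] (G : Type) [Group G] [Finite G] (A : Subgroup G), A.Normal →
      (∀ x ∈ A, ∀ y ∈ A, x * y = y * x) → ∀ (g : G) (φ : α → G), (∀ a, φ a ∈ A ∨ φ a = g) →
      ∀ S : Set G, ∃ P : GRE α, P.sh ≤ 1 ∧ ∀ w : List α, w ∈ P.lang ↔ (w.map φ).prod ∈ S) ∧
    (∀ (α : Type) [Finite α] [DecidableEq α] (u : List α), u.length ≤ 3 → ∀ n r : ℕ, 0 < n →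
        ∃ P : GRE α, P.sh ≤ 1 ∧ ∀ w : List α, w ∈ P.lang ↔ w.sublists.count u % n = r) ∧
    (∀ (α : Type) [Finite α] (Q : Type) [Finite Q] [DecidableEq Q] (δ : Q → α → Q) (h : Q),
      (∀ (u : List α) (q : Q) (k : ℕ), 0 < k →
        (List.replicate k u).flatten.foldl δ q = q →
        (∀ v, v <+: (List.replicate k u).flatten → v.foldl δ q ≠ h) → u.foldl δ q = q) →
      (∀ (q : Q) (F : Set Q),
        ∃ P : GRE α, P.sh ≤ 1 ∧ ∀ w : List α, w ∈ P.lang ↔ w.foldl δ q ∈ F) ∧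
      (∀ (q : Q) (n r : ℕ), 0 < n →
        ∃ P : GRE α, P.sh ≤ 1 ∧ ∀ w : List α, w ∈ P.lang ↔
          w.inits.tail.countP (fun v => decide (v.foldl δ q = h)) % n = r)) ∧
    (∀ (α : Type) [Finite α] (n : ℕ) (φ : α → Equiv.Perm (Fin (n + 1))),
      (∀ (a : α) (i : Fin (n + 1)), i ≠ 0 → φ a i = 0 ∨ i ≤ φ a i) →
      ∀ S : Set (Equiv.Perm (Fin (n + 1))),
        ∃ P : GRE α, P.sh ≤ 1 ∧ ∀ w : List α, w ∈ P.lang ↔ (w.map φ).prod ∈ S) ∧
    (∀ (α : Type) [Finite α] (m : ℕ) (φ : α → Equiv.Perm (Fin (m + 2))),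
      (∀ a : α, φ a = finRotate (m + 2) ∨ φ a = Equiv.swap 0 1 ∨ φ a = 1) →
      ∀ S : Set (Equiv.Perm (Fin (m + 2))),
        ∃ P : GRE α, P.sh ≤ 1 ∧ ∀ w : List α, w ∈ P.lang ↔ (w.map φ).prod ∈ S) ∧
    (∀ (α : Type) [Finite α] (φ : α → Equiv.Perm (ZMod 5)),
      (∀ a, ∃ m c : ZMod 5, (m = 1 ∨ m = 2 ∨ m = 3) ∧ ∀ x, φ a x = m * x + c) →
      ∀ S : Set (Equiv.Perm (ZMod 5)),
        ∃ P : GRE α, P.sh ≤ 1 ∧ ∀ w : List α, w ∈ P.lang ↔ (w.map φ).prod ∈ S) ∧
    (∀ (α : Type) [Finite α] (φ : α → Equiv.Perm (ZMod 5)) (g r : Equiv.Perm (ZMod 5)),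
      (∃ μ γ : ZMod 5, (μ = 2 ∨ μ = 3) ∧ ∀ x, g x = μ * x + γ) →
      (∃ ρ β : ZMod 5, ρ ≠ 0 ∧ ∀ x, r x = ρ * x + β) →
      (∀ a, φ a = 1 ∨ φ a = g ∨ φ a = r) →
      ∀ S : Set (Equiv.Perm (ZMod 5)),
        ∃ P : GRE α, P.sh ≤ 1 ∧ ∀ w : List α, w ∈ P.lang ↔ (w.map φ).prod ∈ S) := by
  have h := Vale.Agent.Results.P329.AllClassesSym.result
  refine ⟨h.1, h.2.1, h.2.2.1, h.2.2.2.1, h.2.2.2.2.1, h.2.2.2.2.2, ?_, ?_⟩
  · intro α _ φ hφ S
    exact Aff5.perm_noinv φ hφ S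
  · intro α _ φ g r hg hr hφ S
    exact Aff5.perm_two φ g r hg hr hφ S

end Vale.Agent.Results.P329.AllClassesSymAff
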