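import Vale.Agent.Lib.P329.ClassThree
import Vale.Agent.Lib.P329.Sub3

namespace Vale.Agent.Results.P329.ClassThree

open Vale.Agent.Lib.P329

/-- (1) Every language recognised by a finite nilpotent group of class at most three has generalized
star height at most one.  (2) For every word `u` of length at most three and every modulus `n`, the
language of the words in which `u` occurs `r` modulo `n` times as a scattered subword (a
subsequence, counted with multiplicity) has generalized star height at most one. -/
theorem result :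
    (∀ (α : Type) [Finite α] (G : Type) [Group G] [Finite G] [Group.IsNilpotent G],
      Group.nilpotencyClass G ≤ 3 → ∀ (φ : α → G) (S : Set G),
        ∃ P : GRE α, P.sh ≤ 1 ∧ ∀ w : List α, w ∈ P.lang ↔ (w.map φ).prod ∈ S) ∧
    (∀ (α : Type) [Finite α] [DecidableEq α] (u : List α), u.length ≤ 3 → ∀ n r : ℕ, 0 < n →
        ∃ P : GRE α, P.sh ≤ 1 ∧ ∀ w : List α, w ∈ P.lang ↔ w.sublists.count u % n = r) := by
  refine ⟨?_, ?_⟩
  · intro α _ G _ _ _ hc φ S
    obtain ⟨P, hP, hL⟩ := main_nilpotent3 hc φ S
    refine ⟨P, hP, fun w => ?_⟩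
    rw [hL]
    exact Iff.rfl
  · intro α _ _ u hu n r hn
    have : NeZero n := ⟨by omega⟩
    obtain ⟨P, hP, hL⟩ := (meas_sc u hu n).pred (fun x : ZMod n => x.val = r)
    refine ⟨P, hP, fun w => ?_⟩
    rw [hL]
    show ((sc u w : ℕ) : ZMod n).val = r ↔ _
    rw [ZMod.val_natCast]
    exact Iff.rfl

end Vale.Agent.Results.P329.ClassThree
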