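import Vale.Agent.Lib.P329.Elem

namespace Vale.Agent.Results.P329.ElementaryQuotient

open Vale.Agent.Lib.P329

/-- Let `G` be a finite group with an abelian normal subgroup `A` such that `G / A` is an elementary
abelian `p`-group for some prime `p` (all `p`-th powers and all commutators lie in `A`).  Then every
language recognised by `G` has generalized star height at most one. -/
theorem result {α : Type} [Finite α] {G : Type} [Group G] [Finite G] (A : Subgroup G) [A.Normal]
    (hA : ∀ x ∈ A, ∀ y ∈ A, x * y = y * x) (p : ℕ) (hp : p.Prime)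
    (hpow : ∀ g : G, g ^ p ∈ A) (hcomm : ∀ g h : G, g * h * g⁻¹ * h⁻¹ ∈ A)
    (φ : α → G) (S : Set G) :
    ∃ P : GRE α, P.sh ≤ 1 ∧ ∀ w : List α, w ∈ P.lang ↔ (w.map φ).prod ∈ S := by
  obtain ⟨P, hP, hL⟩ := main_elementary A hA p hp hpow hcomm φ S
  refine ⟨P, hP, fun w => ?_⟩
  rw [hL]
  exact Iff.rfl

end Vale.Agent.Results.P329.ElementaryQuotient
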