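import Vale.Agent.Lib.P329.Group

namespace Vale.Agent.Results.P329.OneOuterLetter

open Vale.Agent.Lib.P329

/-- Let `G` be a finite group with an abelian normal subgroup `A`, let `g ∈ G`, and let
`φ : α → G` send every letter of the finite alphabet `α` into `A ∪ {g}`.  Then every language
recognised by the induced morphism `α^* → G` has generalized star height at most one. -/
theorem result {α : Type} [Finite α] {G : Type} [Group G] [Finite G] (A : Subgroup G) [A.Normal]
    (hA : ∀ x ∈ A, ∀ y ∈ A, x * y = y * x) (g : G) (φ : α → G)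
    (hφ : ∀ a, φ a ∈ A ∨ φ a = g) (S : Set G) :
    ∃ P : GRE α, P.sh ≤ 1 ∧ ∀ w : List α, w ∈ P.lang ↔ (w.map φ).prod ∈ S := by
  obtain ⟨P, hP, hL⟩ := main_group A hA g φ hφ S
  refine ⟨P, hP, fun w => ?_⟩
  rw [hL]
  exact Iff.rfl

end Vale.Agent.Results.P329.OneOuterLetter
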