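import Vale.Agent.Lib.P329.PrimeIndex

namespace Vale.Agent.Results.P329.PrimeIndex

open Vale.Agent.Lib.P329

/-- Every language recognised by a finite group that has an abelian normal subgroup of prime index
has generalized star height at most one (for every finite alphabet and every morphism). -/
theorem result {α : Type} [Finite α] {G : Type} [Group G] [Finite G] (A : Subgroup G) [A.Normal]
    (hA : ∀ x ∈ A, ∀ y ∈ A, x * y = y * x) (hp : A.index.Prime) (φ : α → G) (S : Set G) :
    ∃ P : GRE α, P.sh ≤ 1 ∧ ∀ w : List α, w ∈ P.lang ↔ (w.map φ).prod ∈ S := by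
  obtain ⟨P, hP, hL⟩ := main_prime_index A hA hp φ S
  refine ⟨P, hP, fun w => ?_⟩
  rw [hL]
  exact Iff.rfl

end Vale.Agent.Results.P329.PrimeIndex
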